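import Vale.Agent.P279.Bdl.B1

/-! # Supports in the lattice and independence of fat torus points

All supports are finite subsets of `ℕ × ℕ`; the order of vanishing at a point of the torus is
expressed with the Euler derivations `x ∂/∂x` and `y ∂/∂y` (characteristic zero). -/

namespace Vale.Agent.P279.NG

/-- The polynomial `∑_{s ∈ S} f s · x ^ s.1 · y ^ s.2` vanishes to order at least `m` at the torus
point `(ξ, η)` (in characteristic zero), written with the Euler derivations. -/
def Van {K : Type*} [Field K] (S : Finset (ℕ × ℕ)) (f : ℕ × ℕ → K) (ξ η : K) (m : ℕ) : Prop :=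
  ∀ a b : ℕ, a + b < m →
    ∑ s ∈ S, f s * ((s.1 : K) ^ a * (s.2 : K) ^ b * (ξ ^ s.1 * η ^ s.2)) = 0

/-- The fat points `q i` of multiplicity `m i` are torus points and impose independent conditions
on (all of) the space of polynomials with support in `S`: only `0` satisfies them. -/
def IndepAt (K : Type*) [Field K] {ι : Type*} (S : Finset (ℕ × ℕ)) (m : ι → ℕ)
    (q : ι → Fin 2 → K) : Prop :=
  (∀ i k, q i k ≠ 0) ∧
    ∀ f : ℕ × ℕ → K, (∀ i, Van S f (q i 0) (q i 1) (m i)) → ∀ s ∈ S, f s = 0

/-- Some rational configuration of torus points is good for `S`. -/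
def Good {ι : Type*} (S : Finset (ℕ × ℕ)) (m : ι → ℕ) : Prop :=
  ∃ q : ι → Fin 2 → ℚ, IndepAt ℚ S m q

end Vale.Agent.P279.NG
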